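import Vale.Agent.P245.H766.BO
import Vale.Agent.P254.SP.H620.DK

/-! Row (BO), W form: `|div_q Q|² ≤ |DQ|² + E tr Q N Q + √GA √|Q|²` for symmetric `0 ≤ Q ≤ 1`. -/

open MeasureTheory Real Set Filter Topology
open scoped ENNReal ContDiff

namespace Vale.Agent.P245.H766

open LS LS.Down E1 Vale.Agent.P254.SP620

variable {n : ℕ}

theorem le_sqrt_mul_sqrt {X a b : ℝ} (ha : 0 ≤ a) (hb : 0 ≤ b)
    (h : ∀ t, 0 < t → X ≤ t / 2 * a + 1 / (2 * t) * b) : X ≤ √a * √b := by
  rcases ha.eq_or_lt with ha0 | ha0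
  · -- a = 0
    rw [← ha0, sqrt_zero, zero_mul]
    by_contra hX
    push Not at hX
    have h1 := h ((b + 1) / X) (by positivity)
    rw [← ha0] at h1
    have h2 : 1 / (2 * ((b + 1) / X)) * b = X * (b / (2 * (b + 1))) := by
      field_simp
    rw [mul_zero, zero_add, h2] at h1
    have h3 : b / (2 * (b + 1)) < 1 := by
      rw [div_lt_one (by positivity)]
      linarith only [hb]
    nlinarith only [h1, h3, hX]
  · rcases hb.eq_or_lt with hb0 | hb0
    · rw [← hb0, sqrt_zero, mul_zero]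
      by_contra hX
      push Not at hX
      have h1 := h (X / a) (by positivity)
      rw [← hb0, mul_zero, add_zero] at h1
      have h2 : X / a / 2 * a = X / 2 := by field_simp
      rw [h2] at h1
      linarith only [h1, hX]
    · have hsa := sqrt_pos.2 ha0
      have hsb := sqrt_pos.2 hb0
      have h1 := h (√b / √a) (by positivity)
      have h2 : √b / √a / 2 * a + 1 / (2 * (√b / √a)) * b = √a * √b := by
        have ea : a = √a * √a := (mul_self_sqrt ha).symm
        have eb : b = √b * √b := (mul_self_sqrt hb).symm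
        generalize √a = α at *
        generalize √b = β at *
        subst ea eb
        field_simp
        ring
      linarith only [h1, h2]

theorem rot3 {α : Type*} [Fintype α] (f : α → α → α → ℝ) :
    ∑ a, ∑ b, ∑ c, f a b c = ∑ c, ∑ a, ∑ b, f a b c := by
  have h : ∀ a, ∑ b, ∑ c, f a b c = ∑ c, ∑ b, f a b c := fun a => Finset.sum_comm
  rw [Finset.sum_congr rfl fun a _ => h a, Finset.sum_comm]

variable {μ : Measure (Fin n → ℝ)} [IsProbabilityMeasure μ] {R r : ℝ}

/-- **(BO), W form** -/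
theorem bo_W (hμ : CSupp μ R) (hr : 0 < r) {N : (Fin n → ℝ) → ℝ} (hN : Pos N)
    {Q : (Fin n → ℝ) → Matrix (Fin n) (Fin n) ℝ} (hsb : ∀ i j, SB fun y => Q y i j)
    (hsym : ∀ y, (Q y).transpose = Q y) (hop : ∀ y, fr (Q y * Q y) ≤ fr (Q y)) :
    EY μ r (fun y => N y * ∑ e, (∑ f, (pd (fun z => Q z e f) f y
        + Q y e f * (sN N f y - DV μ r f y))) ^ 2)
      ≤ EY μ r (fun y => N y * ∑ e, ∑ i, ∑ j, pd (fun z => Q z i j) e y ^ 2)
        + EY μ r (fun y => N y * ∑ k, ∑ i, ∑ j, PV μ r i j y * Q y i k * Q y j k)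
        + √(GA μ r N) * √(EY μ r (fun y => N y * fr (Q y))) := by
  have hNo : Ok N := ok_sb hN.sb
  have hN0 : ∀ y, 0 ≤ N y := by
    obtain ⟨ε, hε, hl⟩ := hN.lb
    intro y
    exact hε.le.trans (hl y)
  have hq : ∀ y i j, Q y i j = Q y j i := fun y i j => by
    have := congrFun (congrFun (hsym y) j) i
    rw [Matrix.transpose_apply] at this
    exact this
  have hsN : ∀ i, sN N i = pd (fun y => log (N y)) i := by
    intro i
    rw [hN.pd_log i]
    rfl
  have oQ : ∀ i j, Ok fun y => Q y i j := fun i j => ok_sb (hsb i j)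
  have oH : ∀ i j, Ok fun y => pd (sN N i) j y := fun i j => ok_sb ((sb_sN hμ hr hN i).pd j)
  have oP : ∀ i j, Ok fun y => PV μ r i j y := fun i j => ok_sb (sb_PV hμ hr i j)
  have h := bochner_mat_le hμ hr hN (Φ := fun j k y => Q y k j) fun j k => hsb k j
  -- left side
  have eL : (fun y => N y * ∑ k, dvq μ r N (fun j => fun y => Q y k j) y ^ 2)
      = fun y => N y * ∑ e, (∑ f, (pd (fun z => Q z e f) f y
        + Q y e f * (sN N f y - DV μ r f y))) ^ 2 := rfl
  -- first term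
  have eD : (fun y => N y * ∑ k, ∑ i, ∑ j, pd (fun z => Q z k i) j y ^ 2)
      = fun y => N y * ∑ e, ∑ i, ∑ j, pd (fun z => Q z i j) e y ^ 2 := by
    funext y
    congr 1
    exact rot3 fun k i j => pd (fun z => Q z k i) j y ^ 2
  -- second term: split
  have e2 : (fun y => N y * ∑ k, ∑ i, ∑ j, Q y k i * Q y k j * (PV μ r i j y - pd (sN N i) j y))
      = fun y => N y * (∑ k, ∑ i, ∑ j, PV μ r i j y * Q y i k * Q y j k)
        + (-1) * (N y * ∑ i, ∑ j, pd (sN N i) j y * (Q y * Q y) i j) := by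
    funext y
    have e : ∑ i, ∑ j, pd (sN N i) j y * (Q y * Q y) i j
        = ∑ k, ∑ i, ∑ j, Q y k i * Q y k j * pd (sN N i) j y := by
      have : ∀ i j, pd (sN N i) j y * (Q y * Q y) i j
          = ∑ k, Q y k i * Q y k j * pd (sN N i) j y := by
        intro i j
        rw [Matrix.mul_apply, Finset.mul_sum]
        refine Finset.sum_congr rfl fun k _ => ?_
        rw [hq y i k]
        ring
      simp_rw [this]
      exact rot3 fun i j k => Q y k i * Q y k j * pd (sN N i) j y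
    rw [e]
    have e' : ∑ k, ∑ i, ∑ j, PV μ r i j y * Q y i k * Q y j k
        = ∑ k, ∑ i, ∑ j, Q y k i * Q y k j * PV μ r i j y := by
      refine Finset.sum_congr rfl fun k _ => Finset.sum_congr rfl fun i _ =>
        Finset.sum_congr rfl fun j _ => ?_
      rw [hq y i k, hq y j k]
      ring
    rw [e']
    have e'' : ∑ k, ∑ i, ∑ j, Q y k i * Q y k j * (PV μ r i j y - pd (sN N i) j y)
        = ∑ k, ∑ i, ∑ j, Q y k i * Q y k j * PV μ r i j y
          - ∑ k, ∑ i, ∑ j, Q y k i * Q y k j * pd (sN N i) j y := by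
      simp_rw [mul_sub, Finset.sum_sub_distrib]
    rw [e'']
    ring
  have oM : ∀ i j, Ok fun y => (Q y * Q y) i j := by
    intro i j
    have := Ok.sum Finset.univ fun (k : Fin n) _ => (oQ i k).mul (oQ k j)
    refine cast ?_ this
    congr 1
  have oP2 : Ok fun y => N y * (∑ k, ∑ i, ∑ j, PV μ r i j y * Q y i k * Q y j k) :=
    hNo.mul (Ok.sum _ fun k _ => Ok.sum _ fun i _ => Ok.sum _ fun j _ =>
      ((oP i j).mul (oQ i k)).mul (oQ j k))
  have oH2 : Ok fun y => N y * ∑ i, ∑ j, pd (sN N i) j y * (Q y * Q y) i j :=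
    hNo.mul (Ok.sum _ fun i _ => Ok.sum _ fun j _ => (oH i j).mul (oM i j))
  have oG : Ok fun y => N y * ∑ i, ∑ j, pd (pd (fun y => log (N y)) i) j y ^ 2 := by
    have := hNo.mul (Ok.sum Finset.univ fun (i : Fin n) _ => Ok.sum Finset.univ
      fun (j : Fin n) _ => ok_sb (((sb_sN hμ hr hN i).pd j).pow 2))
    refine cast ?_ this
    congr 1
    funext y
    congr 1
    refine Finset.sum_congr rfl fun i _ => Finset.sum_congr rfl fun j _ => ?_
    rw [hsN i]
  have oF : Ok fun y => N y * fr (Q y) := by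
    have := hNo.mul (Ok.sum Finset.univ fun (i : Fin n) _ => Ok.sum Finset.univ
      fun (j : Fin n) _ => ok_sb ((hsb i j).pow 2))
    exact this
  have hGA0 : 0 ≤ GA μ r N := EY_nonneg μ r fun y => mul_nonneg (hN0 y)
    (Finset.sum_nonneg fun i _ => Finset.sum_nonneg fun j _ => sq_nonneg _)
  have hF0 : 0 ≤ EY μ r (fun y => N y * fr (Q y)) := EY_nonneg μ r fun y =>
    mul_nonneg (hN0 y) (fr_nonneg _)
  -- Cauchy-Schwarz
  have hcs : -EY μ r (fun y => N y * ∑ i, ∑ j, pd (sN N i) j y * (Q y * Q y) i j)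
      ≤ √(GA μ r N) * √(EY μ r (fun y => N y * fr (Q y))) := by
    refine le_sqrt_mul_sqrt hGA0 hF0 fun t ht => ?_
    have o1 := oG.const_mul (t / 2)
    have o2 := oF.const_mul (1 / (2 * t))
    have hm := EYmono hμ (oH2.const_mul (-1)) (o1.add o2) r (fun y => by
      have hA : ∀ a c : ℝ, -(a * c) ≤ t / 2 * a ^ 2 + 1 / (2 * t) * c ^ 2 := by
        intro a c
        have : t / 2 * a ^ 2 + 1 / (2 * t) * c ^ 2 + a * c = 1 / (2 * t) * (t * a + c) ^ 2 := by
          field_simp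
          ring
        have h0 : 0 ≤ 1 / (2 * t) * (t * a + c) ^ 2 := by positivity
        linarith only [this, h0]
      have h1 : -∑ i, ∑ j, pd (sN N i) j y * (Q y * Q y) i j
          ≤ t / 2 * (∑ i, ∑ j, pd (pd (fun y => log (N y)) i) j y ^ 2)
            + 1 / (2 * t) * fr (Q y * Q y) := by
        unfold fr
        rw [Finset.mul_sum, Finset.mul_sum, ← Finset.sum_neg_distrib, ← Finset.sum_add_distrib]
        refine Finset.sum_le_sum fun i _ => ?_
        rw [Finset.mul_sum, Finset.mul_sum, ← Finset.sum_neg_distrib, ← Finset.sum_add_distrib]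
        refine Finset.sum_le_sum fun j _ => ?_
        rw [hsN i]
        exact hA _ _
      have h2 : 1 / (2 * t) * fr (Q y * Q y) ≤ 1 / (2 * t) * fr (Q y) :=
        mul_le_mul_of_nonneg_left (hop y) (by positivity)
      have h3 := mul_le_mul_of_nonneg_left (h1.trans (add_le_add le_rfl h2)) (hN0 y)
      calc (-1) * (N y * ∑ i, ∑ j, pd (sN N i) j y * (Q y * Q y) i j)
          = N y * -∑ i, ∑ j, pd (sN N i) j y * (Q y * Q y) i j := by ring
        _ ≤ _ := h3
        _ = _ := by ring)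
    rw [EYadd hμ o1 o2, EY_const_mul, EY_const_mul, EY_const_mul] at hm
    have : GA μ r N = EY μ r (fun y => N y * ∑ i, ∑ j, pd (pd (fun y => log (N y)) i) j y ^ 2) :=
      rfl
    rw [this]
    linarith only [hm]
  have h2 : EY μ r (fun y => N y * ∑ k, ∑ i, ∑ j,
        Q y k i * Q y k j * (PV μ r i j y - pd (sN N i) j y))
      = EY μ r (fun y => N y * (∑ k, ∑ i, ∑ j, PV μ r i j y * Q y i k * Q y j k))
        + (-1) * EY μ r (fun y => N y * ∑ i, ∑ j, pd (sN N i) j y * (Q y * Q y) i j) := by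
    rw [e2, EYadd hμ oP2 (oH2.const_mul (-1)), EY_const_mul]
  change EY μ r (fun y => N y * ∑ k, dvq μ r N (fun j => fun y => Q y k j) y ^ 2)
    ≤ EY μ r (fun y => N y * ∑ k, ∑ i, ∑ j, pd (fun z => Q z k i) j y ^ 2)
      + EY μ r (fun y => N y * ∑ k, ∑ i, ∑ j,
        Q y k i * Q y k j * (PV μ r i j y - pd (sN N i) j y)) at h
  rw [eL, eD, h2] at h
  linarith only [h, hcs]

/-- `|F(S)²|² ≤ |F(S)|²` if `|F| ≤ 1` -/
theorem fr_mf_mul_le {ι : Type*} [Fintype ι] [DecidableEq ι] {A : Matrix ι ι ℝ}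
    (hA : A.transpose = A) {F : ℝ → ℝ} (hF : ∀ x, |F x| ≤ 1) :
    fr (mf F A * mf F A) ≤ fr (mf F A) := by
  obtain ⟨U, m, h⟩ := exists_dec hA
  have hfr : ∀ G : ℝ → ℝ, fr (mf G A) = ∑ i, G (m i) ^ 2 := by
    intro G
    rw [fr_eq, h.mf_symm, h.mf_mul, h.mf_trace]
    exact Finset.sum_congr rfl fun i _ => by ring
  rw [h.mf_mul, hfr, hfr]
  refine Finset.sum_le_sum fun i _ => ?_
  have h1 : F (m i) ^ 2 ≤ 1 := by
    have := hF (m i)
    rw [← sq_abs]
    nlinarith only [this, abs_nonneg (F (m i))]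
  nlinarith only [h1, sq_nonneg (F (m i))]

/-- **(BO), W form**, for `Q = F(S)`, `|F| ≤ 1` -/
theorem bo_W_mf (hμ : CSupp μ R) (hr : 0 < r) {N : (Fin n → ℝ) → ℝ} (hN : Pos N)
    {S : (Fin n → ℝ) → Matrix (Fin n) (Fin n) ℝ} {F : ℝ → ℝ} (hF : ∀ x, |F x| ≤ 1)
    (hS : ∀ y, (S y).transpose = S y) (hsb : ∀ i j, SB fun y => mf F (S y) i j) :
    EY μ r (fun y => N y * ∑ e, (∑ f, (pd (fun z => mf F (S z) e f) f y
        + mf F (S y) e f * (sN N f y - DV μ r f y))) ^ 2)
      ≤ EY μ r (fun y => N y * ∑ e, ∑ i, ∑ j, pd (fun z => mf F (S z) i j) e y ^ 2)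
        + EY μ r (fun y => N y * ∑ k, ∑ i, ∑ j, PV μ r i j y * mf F (S y) i k * mf F (S y) j k)
        + √(GA μ r N) * √(EY μ r (fun y => N y * fr (mf F (S y)))) :=
  bo_W hμ hr hN (Q := fun y => mf F (S y)) hsb
    (fun y => by
      obtain ⟨U, m, h⟩ := exists_dec (hS y)
      exact h.mf_symm F)
    fun y => fr_mf_mul_le (hS y) hF

end Vale.Agent.P245.H766
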