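import Vale.Agent.P245.Bdl.B2

/-! Bochner identity for (matrix) fields under `N p_r` (row (BO) of #10218 (9)). -/

open MeasureTheory Real Set Filter Topology
open scoped ENNReal ContDiff

namespace Vale.Agent.P245.H766

open LS LS.Down E1

variable {n : ℕ}

/-- `C¹` functions of exponential growth together with their first derivatives -/
structure GF (G : (Fin n → ℝ) → ℝ) : Prop where
  diff : Differentiable ℝ G
  eg : EG1 G
  pc : ∀ i, Continuous (pd G i)
  pe : ∀ i, EG1 (pd G i)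

theorem GF.cont {G : (Fin n → ℝ) → ℝ} (h : GF G) : Continuous G := h.diff.continuous

/-- continuous functions of exponential growth -/
structure Ok (G : (Fin n → ℝ) → ℝ) : Prop where
  c : Continuous G
  e : EG1 G

theorem Ok.mul {f g : (Fin n → ℝ) → ℝ} (hf : Ok f) (hg : Ok g) : Ok fun y => f y * g y :=
  ⟨hf.c.mul hg.c, hf.e.mul' hg.e⟩

theorem Ok.add {f g : (Fin n → ℝ) → ℝ} (hf : Ok f) (hg : Ok g) : Ok fun y => f y + g y :=
  ⟨hf.c.add hg.c, hf.e.add hg.e⟩

theorem Ok.const_mul {f : (Fin n → ℝ) → ℝ} (hf : Ok f) (c : ℝ) : Ok fun y => c * f y :=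
  ⟨continuous_const.mul hf.c, hf.e.const_mul c⟩

theorem Ok.sub {f g : (Fin n → ℝ) → ℝ} (hf : Ok f) (hg : Ok g) : Ok fun y => f y - g y := by
  have := hf.add (hg.const_mul (-1))
  refine cast ?_ this
  congr 1
  funext y
  ring

theorem Ok.sum {ι : Type*} (s : Finset ι) {f : ι → (Fin n → ℝ) → ℝ}
    (hf : ∀ i ∈ s, Ok (f i)) : Ok fun y => ∑ i ∈ s, f i y :=
  ⟨continuous_finsetSum s fun i hi => (hf i hi).c, EG1.sum s fun i hi => (hf i hi).e⟩

theorem GF.ok {G : (Fin n → ℝ) → ℝ} (h : GF G) : Ok G := ⟨h.cont, h.eg⟩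

theorem GF.okp {G : (Fin n → ℝ) → ℝ} (h : GF G) (i : Fin n) : Ok fun y => pd G i y :=
  ⟨h.pc i, h.pe i⟩

theorem sb_eg {N : (Fin n → ℝ) → ℝ} (h : SB N) : EG1 N := by
  obtain ⟨C, hC⟩ := h.bdd
  exact EG1.of_bdd' hC

theorem GF.of_sb {N : (Fin n → ℝ) → ℝ} (h : SB N) : GF N :=
  ⟨h.differentiable, sb_eg h, fun i => (h.pd i).continuous, fun i => sb_eg (h.pd i)⟩

theorem GF.mul {f g : (Fin n → ℝ) → ℝ} (hf : GF f) (hg : GF g) : GF fun y => f y * g y where
  diff := hf.diff.mul hg.diff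
  eg := hf.eg.mul' hg.eg
  pc i := by
    rw [LS.pd_mul hf.diff hg.diff i]
    exact (hf.cont.mul (hg.pc i)).add ((hf.pc i).mul hg.cont)
  pe i := by
    rw [LS.pd_mul hf.diff hg.diff i]
    exact (hf.eg.mul' (hg.pe i)).add ((hf.pe i).mul' hg.eg)

theorem GF.add {f g : (Fin n → ℝ) → ℝ} (hf : GF f) (hg : GF g) : GF fun y => f y + g y where
  diff := hf.diff.add hg.diff
  eg := hf.eg.add hg.eg
  pc i := by
    rw [LS.pd_add hf.diff hg.diff i]
    exact (hf.pc i).add (hg.pc i)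
  pe i := by
    rw [LS.pd_add hf.diff hg.diff i]
    exact (hf.pe i).add (hg.pe i)

theorem pd_const_mul {f : (Fin n → ℝ) → ℝ} (hf : Differentiable ℝ f) (c : ℝ) (i : Fin n) :
    pd (fun y => c * f y) i = fun y => c * pd f i y := by
  funext y
  unfold pd
  rw [fderiv_const_mul (hf y)]
  rfl

theorem GF.const_mul {f : (Fin n → ℝ) → ℝ} (hf : GF f) (c : ℝ) : GF fun y => c * f y where
  diff := hf.diff.const_mul c
  eg := hf.eg.const_mul c
  pc i := by
    rw [pd_const_mul hf.diff c i]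
    exact continuous_const.mul (hf.pc i)
  pe i := by
    rw [pd_const_mul hf.diff c i]
    exact (hf.pe i).const_mul c

theorem GF.sub {f g : (Fin n → ℝ) → ℝ} (hf : GF f) (hg : GF g) : GF fun y => f y - g y := by
  have := hf.add (hg.const_mul (-1))
  refine cast ?_ this
  congr 1
  funext y
  ring

theorem pd_fsum {ι : Type*} (s : Finset ι) {f : ι → (Fin n → ℝ) → ℝ}
    (hf : ∀ i ∈ s, Differentiable ℝ (f i)) (j : Fin n) :
    pd (fun y => ∑ i ∈ s, f i y) j = fun y => ∑ i ∈ s, pd (f i) j y := by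
  funext y
  unfold pd
  rw [fderiv_fun_sum fun i hi => hf i hi y]
  simp only [sum_apply]

theorem GF.sum {ι : Type*} (s : Finset ι) {f : ι → (Fin n → ℝ) → ℝ}
    (hf : ∀ i ∈ s, GF (f i)) : GF fun y => ∑ i ∈ s, f i y where
  diff := Differentiable.fun_sum fun i hi => (hf i hi).diff
  eg := EG1.sum s fun i hi => (hf i hi).eg
  pc j := by
    rw [pd_fsum s (fun i hi => (hf i hi).diff) j]
    exact continuous_finsetSum s fun i hi => (hf i hi).pc j
  pe j := by
    rw [pd_fsum s (fun i hi => (hf i hi).diff) j]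
    exact EG1.sum s fun i hi => (hf i hi).pe j

theorem ok_sb {N : (Fin n → ℝ) → ℝ} (h : SB N) : Ok N := ⟨h.continuous, sb_eg h⟩

section

variable {μ : Measure (Fin n → ℝ)} [IsProbabilityMeasure μ] {R r : ℝ}

theorem EYadd (hμ : CSupp μ R) {f g : (Fin n → ℝ) → ℝ} (hf : Ok f) (hg : Ok g) (r : ℝ) :
    EY μ r (fun y => f y + g y) = EY μ r f + EY μ r g :=
  EY_add' hμ hf.c hf.e hg.c hg.e r

theorem EYsum (hμ : CSupp μ R) {ι : Type*} (s : Finset ι) {f : ι → (Fin n → ℝ) → ℝ}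
    (hf : ∀ i ∈ s, Ok (f i)) (r : ℝ) :
    EY μ r (fun y => ∑ i ∈ s, f i y) = ∑ i ∈ s, EY μ r (f i) :=
  EY_sum' hμ s (fun i hi => (hf i hi).c) (fun i hi => (hf i hi).e) r

theorem sb_XB (hμ : CSupp μ R) (hr : 0 < r) (i : Fin n) : SB (XB μ r i) :=
  (thR' n μ R hμ).1 r i hr

theorem sb_PV (hμ : CSupp μ R) (hr : 0 < r) (i j : Fin n) : SB (PV μ r i j) :=
  ((thR' n μ R hμ).2.1 r i j hr).1

theorem PV_symm (hμ : CSupp μ R) (hr : 0 < r) (i j : Fin n) : PV μ r i j = PV μ r j i :=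
  ((thR' n μ R hμ).2.1 r i j hr).2

theorem sb_sN (hμ : CSupp μ R) (hr : 0 < r) {N : (Fin n → ℝ) → ℝ} (hN : Pos N) (i : Fin n) :
    SB (sN N i) :=
  (((thR' n μ R hμ).2.2 r r hr le_rfl).2 N hN).2.1 i |>.1

theorem GF.dv (hμ : CSupp μ R) (hr : 0 < r) (i : Fin n) : GF (DV μ r i) where
  diff := by
    have h1 : Differentiable ℝ fun y : Fin n → ℝ => y i - XB μ r i y :=
      (differentiable_apply i).sub (sb_XB hμ hr i).differentiable
    have h2 : Differentiable ℝ fun y : Fin n → ℝ => r⁻¹ * (y i - XB μ r i y) := h1.const_mul r⁻¹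
    refine cast ?_ h2
    congr 1
    funext y
    unfold DV
    ring
  eg := by
    have h := ((EG1.coord i).add ((sb_eg (sb_XB hμ hr i)).const_mul (-1))).const_mul (1 / r)
    refine cast ?_ h
    congr 1
    funext y
    unfold DV
    ring
  pc j := (sb_PV hμ hr i j).continuous
  pe j := sb_eg (sb_PV hμ hr i j)

/-- integration by parts at level `r` -/
theorem ibp1 (hμ : CSupp μ R) (hr : 0 < r) (j : Fin n) {G : (Fin n → ℝ) → ℝ} (hG : GF G) :
    EY μ r (fun y => DV μ r j y * G y) = EY μ r (pd G j) := by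
  have h := EY_ibp hμ hr j (G := G) (c := fun i y => pd G i y)
    (fun y => hasFDerivAt_lf (hG.diff y)) hG.eg (hG.pc j) (hG.pe j)
  have e : (fun y => DV μ r j y * G y) = fun y => (-1) * (sc μ j r y * G y) := by
    funext y
    unfold DV sc XB UP
    ring
  rw [e, EY_const_mul, h]
  change -1 * -EY μ r (pd G j) = _
  ring

theorem ibp2 (hμ : CSupp μ R) (hr : 0 < r) {N : (Fin n → ℝ) → ℝ} (hN : Pos N) (j : Fin n)
    {φ g : (Fin n → ℝ) → ℝ} (hφ : GF φ) (hg : GF g) :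
    EY μ r (fun y => N y * ((pd φ j y + φ y * (sN N j y - DV μ r j y)) * g y))
      = -EY μ r (fun y => N y * (φ y * pd g j y)) := by
  have hNg : GF N := GF.of_sb hN.sb
  have hG : GF fun y => N y * (φ y * g y) := hNg.mul (hφ.mul hg)
  have h1 := ibp1 hμ hr j hG
  have hpd : pd (fun y => N y * (φ y * g y)) j
      = fun y => N y * (φ y * pd g j y + pd φ j y * g y) + pd N j y * (φ y * g y) := by
    rw [LS.pd_mul hNg.diff (hφ.mul hg).diff j, LS.pd_mul hφ.diff hg.diff j]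
  have hNpos : ∀ y, N y ≠ 0 := by
    obtain ⟨ε, hε, hl⟩ := hN.lb
    intro y
    exact (lt_of_lt_of_le hε (hl y)).ne'
  have e : (fun y => N y * ((pd φ j y + φ y * (sN N j y - DV μ r j y)) * g y))
      = fun y => (pd (fun y => N y * (φ y * g y)) j y
          + (-1) * (DV μ r j y * (N y * (φ y * g y)))) + (-1) * (N y * (φ y * pd g j y)) := by
    funext y
    rw [hpd]
    unfold sN
    have := hNpos y
    field_simp
    ring
  have o1 := hG.okp j
  have o2 := ((GF.dv hμ hr j).ok.mul hG.ok).const_mul (-1)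
  have o3 := (hNg.ok.mul (hφ.ok.mul (hg.okp j))).const_mul (-1)
  rw [e, EYadd hμ (o1.add o2) o3, EYadd hμ o1 o2, EY_const_mul, EY_const_mul, h1]
  change EY μ r (pd (fun y => N y * (φ y * g y)) j)
    + -1 * EY μ r (pd (fun y => N y * (φ y * g y)) j) + -1 * _ = _
  ring

/-- the `N p_r`-divergence of a vector field -/
noncomputable def dvq (μ : Measure (Fin n → ℝ)) (r : ℝ) (N : (Fin n → ℝ) → ℝ)
    (φ : Fin n → (Fin n → ℝ) → ℝ) (y : Fin n → ℝ) : ℝ :=
  ∑ j, (pd (φ j) j y + φ j y * (sN N j y - DV μ r j y))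

theorem GF.ell (hμ : CSupp μ R) (hr : 0 < r) {N : (Fin n → ℝ) → ℝ} (hN : Pos N) (j : Fin n) :
    GF fun y => sN N j y - DV μ r j y :=
  (GF.of_sb (sb_sN hμ hr hN j)).sub (GF.dv hμ hr j)

theorem pd_ell (hμ : CSupp μ R) (hr : 0 < r) {N : (Fin n → ℝ) → ℝ} (hN : Pos N) (j i : Fin n) :
    pd (fun y => sN N j y - DV μ r j y) i = fun y => pd (sN N j) i y - PV μ r j i y := by
  funext y
  unfold pd
  rw [fderiv_fun_sub ((sb_sN hμ hr hN j).differentiable y) ((GF.dv hμ hr j).diff y)]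
  rfl

theorem GF.dvq_term (hμ : CSupp μ R) (hr : 0 < r) {N : (Fin n → ℝ) → ℝ} (hN : Pos N)
    {φ : Fin n → (Fin n → ℝ) → ℝ} (hφ : ∀ i, SB (φ i)) (j : Fin n) :
    GF fun y => pd (φ j) j y + φ j y * (sN N j y - DV μ r j y) :=
  (GF.of_sb ((hφ j).pd j)).add ((GF.of_sb (hφ j)).mul (GF.ell hμ hr hN j))

theorem gf_dvq (hμ : CSupp μ R) (hr : 0 < r) {N : (Fin n → ℝ) → ℝ} (hN : Pos N)
    {φ : Fin n → (Fin n → ℝ) → ℝ} (hφ : ∀ i, SB (φ i)) : GF (dvq μ r N φ) :=
  GF.sum _ fun j _ => GF.dvq_term hμ hr hN hφ j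

theorem pd_dvq (hμ : CSupp μ R) (hr : 0 < r) {N : (Fin n → ℝ) → ℝ} (hN : Pos N)
    {φ : Fin n → (Fin n → ℝ) → ℝ} (hφ : ∀ i, SB (φ i)) (i : Fin n) :
    pd (dvq μ r N φ) i = fun y => ∑ j, (pd (pd (φ j) j) i y
      + (φ j y * (pd (sN N j) i y - PV μ r j i y)
        + pd (φ j) i y * (sN N j y - DV μ r j y))) := by
  have e : dvq μ r N φ = fun y => ∑ j, (pd (φ j) j y + φ j y * (sN N j y - DV μ r j y)) := rfl
  rw [e, pd_fsum _ (fun j _ => (GF.dvq_term hμ hr hN hφ j).diff) i]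
  funext y
  refine Finset.sum_congr rfl fun j _ => ?_
  rw [LS.pd_add ((hφ j).pd j).differentiable
    ((GF.of_sb (hφ j)).mul (GF.ell hμ hr hN j)).diff i,
    LS.pd_mul (hφ j).differentiable (GF.ell hμ hr hN j).diff i, pd_ell hμ hr hN j i]

/-- symmetry of the second partial derivatives of an `SB` function -/
theorem pd_pd_symm {f : (Fin n → ℝ) → ℝ} (hf : SB f) (i j : Fin n) :
    pd (pd f i) j = pd (pd f j) i := by
  funext y
  exact grad_symm (f := f) (a := fun i y => pd f i y) (a2 := fun i j y => pd (pd f i) j y)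
    (fun y => hasFDerivAt_lf (hf.differentiable y))
    (fun i y => hasFDerivAt_lf ((hf.pd i).differentiable y)) i j y

/-- Bochner identity, polarised, for vector fields -/
theorem bochner (hμ : CSupp μ R) (hr : 0 < r) {N : (Fin n → ℝ) → ℝ} (hN : Pos N)
    {φ ψ : Fin n → (Fin n → ℝ) → ℝ} (hφ : ∀ i, SB (φ i)) (hψ : ∀ i, SB (ψ i)) :
    EY μ r (fun y => N y * (dvq μ r N φ y * dvq μ r N ψ y))
      = EY μ r (fun y => N y * ∑ i, ∑ j, pd (φ i) j y * pd (ψ j) i y)
        + EY μ r (fun y => N y * ∑ i, ∑ j, φ i y * ψ j y * (PV μ r j i y - pd (sN N j) i y)) := by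
  have hNo : Ok N := ok_sb hN.sb
  have oφ : ∀ i, Ok (φ i) := fun i => ok_sb (hφ i)
  have oψ : ∀ i, Ok (ψ i) := fun i => ok_sb (hψ i)
  have oell := fun j => (GF.ell hμ hr hN j).ok
  have oK : ∀ i j, Ok fun y => PV μ r j i y - pd (sN N j) i y := fun i j =>
    ok_sb ((sb_PV hμ hr j i).sub ((sb_sN hμ hr hN j).pd i))
  -- first integration by parts
  have s1 : EY μ r (fun y => N y * (dvq μ r N φ y * dvq μ r N ψ y))
      = ∑ i, -EY μ r (fun y => N y * (φ i y * pd (dvq μ r N ψ) i y)) := by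
    have e : (fun y => N y * (dvq μ r N φ y * dvq μ r N ψ y))
        = fun y => ∑ i, N y * ((pd (φ i) i y + φ i y * (sN N i y - DV μ r i y))
          * dvq μ r N ψ y) := by
      funext y
      rw [dvq, Finset.sum_mul, Finset.mul_sum]
    rw [e, EYsum hμ _ (fun i _ => hNo.mul
      ((GF.dvq_term hμ hr hN hφ i).ok.mul (gf_dvq hμ hr hN hψ).ok)) r]
    exact Finset.sum_congr rfl fun i _ =>
      ibp2 hμ hr hN i (GF.of_sb (hφ i)) (gf_dvq hμ hr hN hψ)
  -- the terms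
  have t : ∀ i, -EY μ r (fun y => N y * (φ i y * pd (dvq μ r N ψ) i y))
      = ∑ j, (EY μ r (fun y => N y * (pd (φ i) j y * pd (ψ j) i y))
        + EY μ r (fun y => N y * (φ i y * ψ j y * (PV μ r j i y - pd (sN N j) i y)))) := by
    intro i
    have e : (fun y => N y * (φ i y * pd (dvq μ r N ψ) i y))
        = fun y => ∑ j, ((N y * (φ i y * pd (pd (ψ j) i) j y)
          + N y * ((φ i y * (sN N j y - DV μ r j y)) * pd (ψ j) i y))
          + (-1) * (N y * (φ i y * ψ j y * (PV μ r j i y - pd (sN N j) i y)))) := by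
      funext y
      rw [pd_dvq hμ hr hN hψ i, Finset.mul_sum, Finset.mul_sum]
      refine Finset.sum_congr rfl fun j _ => ?_
      rw [pd_pd_symm (hψ j) j i]
      ring
    have o1 := fun j => hNo.mul ((oφ i).mul (ok_sb (((hψ j).pd i).pd j)))
    have o2 := fun j => hNo.mul (((oφ i).mul (oell j)).mul (ok_sb ((hψ j).pd i)))
    have o3 := fun j => (hNo.mul (((oφ i).mul (oψ j)).mul (oK i j))).const_mul (-1)
    rw [e, EYsum hμ _ (fun j _ => ((o1 j).add (o2 j)).add (o3 j)) r, ← Finset.sum_neg_distrib]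
    refine Finset.sum_congr rfl fun j _ => ?_
    rw [EYadd hμ ((o1 j).add (o2 j)) (o3 j), EYadd hμ (o1 j) (o2 j), EY_const_mul]
    have h2 := ibp2 hμ hr hN j (GF.of_sb (hφ i)) (GF.of_sb ((hψ j).pd i))
    have e2 : (fun y => N y * ((pd (φ i) j y + φ i y * (sN N j y - DV μ r j y)) * pd (ψ j) i y))
        = fun y => N y * (pd (φ i) j y * pd (ψ j) i y)
          + N y * ((φ i y * (sN N j y - DV μ r j y)) * pd (ψ j) i y) := by
      funext y
      ring
    rw [e2, EYadd hμ (hNo.mul ((ok_sb ((hφ i).pd j)).mul (ok_sb ((hψ j).pd i)))) (o2 j)] at h2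
    linarith only [h2]
  rw [s1, Finset.sum_congr rfl fun i _ => t i]
  simp_rw [Finset.sum_add_distrib]
  congr 1
  · have e : (fun y => N y * ∑ i, ∑ j, pd (φ i) j y * pd (ψ j) i y)
        = fun y => ∑ i, ∑ j, N y * (pd (φ i) j y * pd (ψ j) i y) := by
      funext y
      rw [Finset.mul_sum]
      exact Finset.sum_congr rfl fun i _ => Finset.mul_sum _ _ _
    have o := fun i j => hNo.mul ((ok_sb ((hφ i).pd j)).mul (ok_sb ((hψ j).pd i)))
    rw [e, EYsum hμ _ (fun i _ => Ok.sum _ fun j _ => o i j) r]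
    refine Finset.sum_congr rfl fun i _ => ?_
    rw [EYsum hμ _ (fun j _ => o i j) r]
  · have e : (fun y => N y * ∑ i, ∑ j, φ i y * ψ j y * (PV μ r j i y - pd (sN N j) i y))
        = fun y => ∑ i, ∑ j, N y * (φ i y * ψ j y * (PV μ r j i y - pd (sN N j) i y)) := by
      funext y
      rw [Finset.mul_sum]
      exact Finset.sum_congr rfl fun i _ => Finset.mul_sum _ _ _
    have o := fun i j => hNo.mul (((oφ i).mul (oψ j)).mul (oK i j))
    rw [e, EYsum hμ _ (fun i _ => Ok.sum _ fun j _ => o i j) r]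
    refine Finset.sum_congr rfl fun i _ => ?_
    rw [EYsum hμ _ (fun j _ => o i j) r]

/-- integration by parts against a divergence -/
theorem ibp_dvq (hμ : CSupp μ R) (hr : 0 < r) {N : (Fin n → ℝ) → ℝ} (hN : Pos N)
    {φ : Fin n → (Fin n → ℝ) → ℝ} (hφ : ∀ i, SB (φ i)) {g : (Fin n → ℝ) → ℝ} (hg : GF g) :
    EY μ r (fun y => N y * (dvq μ r N φ y * g y))
      = -EY μ r (fun y => N y * ∑ j, φ j y * pd g j y) := by
  have hNo : Ok N := ok_sb hN.sb
  have e : (fun y => N y * (dvq μ r N φ y * g y))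
      = fun y => ∑ i, N y * ((pd (φ i) i y + φ i y * (sN N i y - DV μ r i y)) * g y) := by
    funext y
    rw [dvq, Finset.sum_mul, Finset.mul_sum]
  have e2 : (fun y => N y * ∑ j, φ j y * pd g j y) = fun y => ∑ j, N y * (φ j y * pd g j y) := by
    funext y
    rw [Finset.mul_sum]
  rw [e, e2, EYsum hμ _ (fun i _ => hNo.mul ((GF.dvq_term hμ hr hN hφ i).ok.mul hg.ok)) r,
    EYsum hμ _ (fun i _ => hNo.mul ((ok_sb (hφ i)).mul (hg.okp i))) r, ← Finset.sum_neg_distrib]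
  exact Finset.sum_congr rfl fun i _ => ibp2 hμ hr hN i (GF.of_sb (hφ i)) hg

/-- Bochner identity for one vector field -/
theorem bochner_self (hμ : CSupp μ R) (hr : 0 < r) {N : (Fin n → ℝ) → ℝ} (hN : Pos N)
    {φ : Fin n → (Fin n → ℝ) → ℝ} (hφ : ∀ i, SB (φ i)) :
    EY μ r (fun y => N y * dvq μ r N φ y ^ 2)
      = EY μ r (fun y => N y * ∑ i, ∑ j, pd (φ i) j y * pd (φ j) i y)
        + EY μ r (fun y => N y * ∑ i, ∑ j, φ i y * φ j y * (PV μ r i j y - pd (sN N i) j y)) := by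
  have h := bochner hμ hr hN hφ hφ
  have e1 : (fun y => N y * dvq μ r N φ y ^ 2) = fun y => N y * (dvq μ r N φ y * dvq μ r N φ y) := by
    funext y
    rw [sq]
  have e2 : (fun y => N y * ∑ i, ∑ j, φ i y * φ j y * (PV μ r i j y - pd (sN N i) j y))
      = fun y => N y * ∑ i, ∑ j, φ i y * φ j y * (PV μ r j i y - pd (sN N j) i y) := by
    funext y
    rw [Finset.sum_comm]
    congr 1
    refine Finset.sum_congr rfl fun i _ => Finset.sum_congr rfl fun j _ => ?_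
    ring
  rw [e1, e2, h]

/-- **(BO)** Bochner identity for matrix fields (second index in any finite type) -/
theorem bochner_mat {ι : Type*} [Fintype ι] (hμ : CSupp μ R) (hr : 0 < r)
    {N : (Fin n → ℝ) → ℝ} (hN : Pos N)
    {Φ : Fin n → ι → (Fin n → ℝ) → ℝ} (hΦ : ∀ i k, SB (Φ i k)) :
    EY μ r (fun y => N y * ∑ k, dvq μ r N (fun j => Φ j k) y ^ 2)
      = EY μ r (fun y => N y * ∑ k, ∑ i, ∑ j, pd (Φ i k) j y * pd (Φ j k) i y)
        + EY μ r (fun y => N y * ∑ k, ∑ i, ∑ j,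
            Φ i k y * Φ j k y * (PV μ r i j y - pd (sN N i) j y)) := by
  have hNo : Ok N := ok_sb hN.sb
  have oΦ : ∀ i k, Ok (Φ i k) := fun i k => ok_sb (hΦ i k)
  have oK : ∀ i j, Ok fun y => PV μ r i j y - pd (sN N i) j y := fun i j =>
    ok_sb ((sb_PV hμ hr i j).sub ((sb_sN hμ hr hN i).pd j))
  have e1 : (fun y => N y * ∑ k, dvq μ r N (fun j => Φ j k) y ^ 2)
      = fun y => ∑ k, N y * dvq μ r N (fun j => Φ j k) y ^ 2 := by
    funext y; rw [Finset.mul_sum]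
  have e2 : (fun y => N y * ∑ k, ∑ i, ∑ j, pd (Φ i k) j y * pd (Φ j k) i y)
      = fun y => ∑ k, N y * ∑ i, ∑ j, pd (Φ i k) j y * pd (Φ j k) i y := by
    funext y; rw [Finset.mul_sum]
  have e3 : (fun y => N y * ∑ k, ∑ i, ∑ j,
            Φ i k y * Φ j k y * (PV μ r i j y - pd (sN N i) j y))
      = fun y => ∑ k, N y * ∑ i, ∑ j,
            Φ i k y * Φ j k y * (PV μ r i j y - pd (sN N i) j y) := by
    funext y; rw [Finset.mul_sum]
  have o1 : ∀ k, Ok fun y => N y * dvq μ r N (fun j => Φ j k) y ^ 2 := by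
    intro k
    have h := (gf_dvq hμ hr hN (φ := fun j => Φ j k) (fun j => hΦ j k)).ok
    have := hNo.mul (h.mul h)
    refine cast ?_ this
    congr 1
    funext y
    rw [sq]
  have o2 : ∀ k, Ok fun y => N y * ∑ i, ∑ j, pd (Φ i k) j y * pd (Φ j k) i y := fun k =>
    hNo.mul (Ok.sum _ fun i _ => Ok.sum _ fun j _ =>
      (ok_sb ((hΦ i k).pd j)).mul (ok_sb ((hΦ j k).pd i)))
  have o3 : ∀ k, Ok fun y => N y * ∑ i, ∑ j,
            Φ i k y * Φ j k y * (PV μ r i j y - pd (sN N i) j y) := fun k =>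
    hNo.mul (Ok.sum _ fun i _ => Ok.sum _ fun j _ => ((oΦ i k).mul (oΦ j k)).mul (oK i j))
  rw [e1, e2, e3, EYsum hμ _ (fun k _ => o1 k) r, EYsum hμ _ (fun k _ => o2 k) r,
    EYsum hμ _ (fun k _ => o3 k) r, ← Finset.sum_add_distrib]
  exact Finset.sum_congr rfl fun k _ => bochner_self hμ hr hN fun j => hΦ j k

theorem EYmono (hμ : CSupp μ R) {f g : (Fin n → ℝ) → ℝ} (hf : Ok f) (hg : Ok g) (r : ℝ)
    (h : ∀ y, f y ≤ g y) : EY μ r f ≤ EY μ r g := by
  have h1 := EYadd hμ hg (hf.const_mul (-1)) r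
  rw [EY_const_mul] at h1
  have h2 : 0 ≤ EY μ r (fun y => g y + (-1) * f y) :=
    EY_nonneg μ r fun y => by linarith only [h y]
  linarith only [h1, h2]

/-- (BO), upper bound: the full derivative in the first term -/
theorem bochner_mat_le {ι : Type*} [Fintype ι] (hμ : CSupp μ R) (hr : 0 < r)
    {N : (Fin n → ℝ) → ℝ} (hN : Pos N)
    {Φ : Fin n → ι → (Fin n → ℝ) → ℝ} (hΦ : ∀ i k, SB (Φ i k)) :
    EY μ r (fun y => N y * ∑ k, dvq μ r N (fun j => Φ j k) y ^ 2)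
      ≤ EY μ r (fun y => N y * ∑ k, ∑ i, ∑ j, pd (Φ i k) j y ^ 2)
        + EY μ r (fun y => N y * ∑ k, ∑ i, ∑ j,
            Φ i k y * Φ j k y * (PV μ r i j y - pd (sN N i) j y)) := by
  rw [bochner_mat hμ hr hN hΦ]
  have hNo : Ok N := ok_sb hN.sb
  have hN0 : ∀ y, 0 ≤ N y := by
    obtain ⟨ε, hε, hl⟩ := hN.lb
    intro y
    exact hε.le.trans (hl y)
  refine add_le_add (EYmono hμ ?_ ?_ r fun y => ?_) le_rfl
  · exact hNo.mul (Ok.sum _ fun k _ => Ok.sum _ fun i _ => Ok.sum _ fun j _ =>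
      (ok_sb ((hΦ i k).pd j)).mul (ok_sb ((hΦ j k).pd i)))
  · exact hNo.mul (Ok.sum _ fun k _ => Ok.sum _ fun i _ => Ok.sum _ fun j _ =>
      ok_sb (((hΦ i k).pd j).pow 2))
  · refine mul_le_mul_of_nonneg_left (Finset.sum_le_sum fun k _ => ?_) (hN0 y)
    have h1 : ∑ i, ∑ j, pd (Φ i k) j y * pd (Φ j k) i y
        ≤ ∑ i, ∑ j, (1 / 2 * pd (Φ i k) j y ^ 2 + 1 / 2 * pd (Φ j k) i y ^ 2) :=
      Finset.sum_le_sum fun i _ => Finset.sum_le_sum fun j _ => by
        nlinarith only [sq_nonneg (pd (Φ i k) j y - pd (Φ j k) i y)]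
    refine h1.trans (le_of_eq ?_)
    simp_rw [Finset.sum_add_distrib]
    rw [Finset.sum_comm (f := fun i j => 1 / 2 * pd (Φ j k) i y ^ 2), ← Finset.sum_add_distrib]
    refine Finset.sum_congr rfl fun i _ => ?_
    rw [← Finset.sum_add_distrib]
    refine Finset.sum_congr rfl fun j _ => ?_
    ring

end

end Vale.Agent.P245.H766
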